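import Vale.Agent.P088.H198.Defs

/-!
# P088, local rigidity of conformally flat metrics near the flat one: definitions and rows
-/

open MeasureTheory Set
open scoped ContDiff Matrix

noncomputable section

namespace Vale.Agent.P088.LR.CF

variable {n : ℕ}

/-- Euclidean length. -/
def nr (ξ : V n) : ℝ := √(∑ j, ξ j ^ 2)

/-- The weight `1 + |ζ|_1`. -/
def wr (ζ : V n) : ℝ := 1 + ∑ j, |ζ j|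

/-- The closed Euclidean ball of radius `1/4` about the centre of the unit cube. -/
def bal (n : ℕ) : Set (V n) := {x | ∑ j, (x j - 1 / 2) ^ 2 ≤ 1 / 16}

/-- The entries of `s₂ - s₁`. -/
def df (s₁ s₂ : MF n) (i j : Fin n) (x : V n) : ℂ := ((s₂ x i j - s₁ x i j : ℝ) : ℂ)

/-- The conformal tensor `σ · 1`. -/
def sc (σ : V n → ℝ) : MF n := fun x => σ x • (1 : Matrix (Fin n) (Fin n) ℝ)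

/-- The orthogonality identity for two tensors. -/
def St2 (Ω : Set (V n)) (s₁ s₂ : MF n) : Prop :=
  ∀ U W : V n → ℂ, ContDiff ℝ ∞ U → ContDiff ℝ ∞ W →
    (∀ x ∈ Ω, dv s₁ U x = 0) → (∀ x ∈ Ω, dv s₂ W x = 0) → bl Ω (fun x => s₂ x - s₁ x) U W = 0

/-- `∂_j log σ`. -/
def lg (σ : V n → ℝ) (j : Fin n) (x : V n) : ℂ := ((pd j σ x / σ x : ℝ) : ℂ)

/-- The frequencies `e π |ξ| e_{i₀} - i π ξ`, `e = ±1`, for `ξ ⊥ e_{i₀}`. -/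
def zs (e : ℝ) (i₀ : Fin n) (ξ : V n) (j : Fin n) : ℂ :=
  ⟨if j = i₀ then e * Real.pi * nr ξ else 0, -(Real.pi * ξ j)⟩

/-- The shift `e_{i₀} / 2`. -/
def th0 (i₀ : Fin n) : V n := Pi.single i₀ (1 / 2)

/-- `λ(k) = 2πi (k + θ) + z`. -/
def lmz (i₀ : Fin n) (z : Fin n → ℂ) (k : Ix n) (j : Fin n) : ℂ :=
  2 * Real.pi * Complex.I * ((fr (th0 i₀) k j : ℝ) : ℂ) + z j

/-- `W` has the gradient `e^{z·x} (z + Es θ y)` and solves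
`∑_i ∂_i (∂_i W + ∑_j H_ij ∂_j W) + ∑_j Λ_j ∂_j W = 0` on the cube. -/
structure Sol (z : Fin n → ℂ) (θ : V n) (H : Fin n → Fin n → V n → ℂ) (Λ : Fin n → V n → ℂ)
    (y : Fin n → Ix n → ℂ) (W : V n → ℂ) : Prop where
  ry : ∀ i, RD (y i)
  sW : ContDiff ℝ ∞ W
  gr : ∀ i x, pd i W x = Complex.exp (∑ j, z j * x j) * (z i + Es θ (y i) x)
  eq : ∀ x ∈ cube n, (∑ i, pd i (fun y => pd i W y + ∑ j, H i j y * pd j W y) x)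
    + ∑ j, Λ j x * pd j W x = 0

/-- The data of the estimate: `σ` near `1`, `s = σ · 1` off `Ω`, orthogonality. -/
structure Bk (Ω : Set (V n)) (σ : V n → ℝ) (s : MF n) : Prop where
  op : IsOpen Ω
  sub : Ω ⊆ bal n
  sσ : ContDiff ℝ ∞ σ
  pos : ∀ x, 0 < σ x
  one : ∀ x ∉ bal n, σ x = 1
  sm : SmM s
  sy : ∀ x, (s x).IsSymm
  off : ∀ x ∉ Ω, s x = sc σ x
  st : St2 Ω (sc σ) s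

/-! ## Rows (literal statements) -/

/-- (CF_SYM) the symbol in the frame `e_{i₀}`. -/
def RowSYM : Prop := ∀ {n : ℕ} (i₀ : Fin n) (e : ℝ) (ξ : V n), (e = 1 ∨ e = -1) → ξ i₀ = 0 →
  1 ≤ nr ξ → ∑ j, zs e i₀ ξ j ^ 2 = 0 ∧ (∀ j, ‖zs e i₀ ξ j‖ ≤ 2 * Real.pi * nr ξ) ∧
    ∀ k : Ix n, nr ξ ≤ ‖∑ j, lmz i₀ (zs e i₀ ξ) k j ^ 2‖ ∧
      (∃ i, 1 ≤ ‖lmz i₀ (zs e i₀ ξ) k i‖) ∧
      (∀ i, ‖lmz i₀ (zs e i₀ ξ) k i‖ ≤ 3 * ‖∑ j, lmz i₀ (zs e i₀ ξ) k j ^ 2‖) ∧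
      ∀ i m, ‖lmz i₀ (zs e i₀ ξ) k i‖ * ‖lmz i₀ (zs e i₀ ξ) k m‖
        ≤ 3 * nr ξ * ‖∑ j, lmz i₀ (zs e i₀ ξ) k j ^ 2‖

/-- (CF_CGO) the solutions in the frame `e_{i₀}`: background `Λ₀` (no second order part) and
perturbation `H, Λ`. -/
def RowCGF : Prop := ∀ (n N : ℕ), ∃ C : ℝ, 0 < C ∧ ∀ (i₀ : Fin n) (e : ℝ) (ξ : V n),
  (e = 1 ∨ e = -1) → ξ i₀ = 0 → 1 ≤ nr ξ →
  ∀ (H : Fin n → Fin n → V n → ℂ) (Λ₀ Λ : Fin n → V n → ℂ),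
  (∀ i j, ContDiff ℝ ∞ (H i j)) → (∀ j, ContDiff ℝ ∞ (Λ₀ j)) → (∀ j, ContDiff ℝ ∞ (Λ j)) →
  (∀ i j, ∀ x ∉ core n, H i j x = 0) → (∀ j, ∀ x ∉ core n, Λ₀ j x = 0) →
  (∀ j, ∀ x ∉ core n, Λ j x = 0) → ∀ b A : ℝ, (∀ j, Cl (N + n + 1) b (Λ₀ j)) →
  (∀ i j, nm 0 (cf 0 (H i j)) ≤ A) → (∀ j, nm 0 (cf 0 (fun x => Λ j x - Λ₀ j x)) ≤ A) →
  C * b ≤ 1 → C * nr ξ * A ≤ 1 →
  ∃ (y₀ y : Fin n → Ix n → ℂ) (W₀ W : V n → ℂ),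
    Sol (zs e i₀ ξ) (th0 i₀) (fun _ _ _ => 0) Λ₀ y₀ W₀ ∧
    Sol (zs e i₀ ξ) (th0 i₀) H Λ y W ∧ (∀ i, nm N (y₀ i) ≤ C * nr ξ * b) ∧
    ∀ i, nm 0 (fun k => y i k - y₀ i k) ≤ C * nr ξ ^ 2 * A

/-- (CF_INT) interpolation: decay at the integers implies decay at all real frequencies. -/
def RowINT : Prop := ∀ n : ℕ, ∃ C : ℝ, 0 < C ∧ ∀ f : V n → ℂ, ContDiff ℝ ∞ f →
  (∀ x ∉ core n, f x = 0) → ∀ a, (∀ k : Ix n, wt k ^ (n + 1) * ‖ft f (fr 0 k)‖ ≤ a) →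
  ∀ ζ : V n, wr ζ ^ (n + 1) * ‖ft f ζ‖ ≤ C * a

/-- (CF_ESF) the estimate in the frame `e_{i₀}`. -/
def RowESF : Prop := ∀ n : ℕ, ∃ (M : ℕ) (C : ℝ), 0 < C ∧ ∀ (i₀ : Fin n) (Ω : Set (V n))
  (σ : V n → ℝ) (s : MF n), Bk Ω σ s → ∀ a b : ℝ, (∀ j, Cl M b (lg σ j)) →
  Cl M b (fun x => (σ x)⁻¹ - 1) → C * b ≤ 1 →
  (∀ i j, ∀ ζ : V n, wr ζ ^ (n + 1) * ‖ft (df (sc σ) s i j) ζ‖ ≤ a) →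
  ∀ ξ : V n, ξ i₀ = 0 → 1 ≤ nr ξ → C * nr ξ * a ≤ 1 →
  wr ξ ^ (n + 1) * ‖((nr ξ : ℝ) : ℂ) ^ 2 * ft (df (sc σ) s i₀ i₀) ξ
      + ∑ i, ∑ j, (ξ i : ℂ) * ξ j * ft (df (sc σ) s i j) ξ‖
    ≤ C * nr ξ ^ 2 * (b * a) + C * nr ξ ^ 3 * a ^ 2 * wr ξ ^ (n + 1)

/-- (CF_ROT) the estimate for every real unit vector `q ⊥ ξ`. -/
def RowES2 : Prop := ∀ n : ℕ, ∃ (M : ℕ) (C : ℝ), 0 < C ∧ ∀ (Ω : Set (V n))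
  (σ : V n → ℝ) (s : MF n), Bk Ω σ s → ∀ a b : ℝ, (∀ j, Cl M b (lg σ j)) →
  Cl M b (fun x => (σ x)⁻¹ - 1) → C * b ≤ 1 →
  (∀ i j, ∀ k : Ix n, wt k ^ (n + 1) * ‖ft (df (sc σ) s i j) (fr 0 k)‖ ≤ a) →
  ∀ ξ q : V n, nr q = 1 → ∑ j, q j * ξ j = 0 → 1 ≤ nr ξ → C * nr ξ * a ≤ 1 →
  wr ξ ^ (n + 1) * ‖((nr ξ : ℝ) : ℂ) ^ 2 * (∑ i, ∑ j, (q i : ℂ) * q j * ft (df (sc σ) s i j) ξ)
      + ∑ i, ∑ j, (ξ i : ℂ) * ξ j * ft (df (sc σ) s i j) ξ‖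
    ≤ C * nr ξ ^ 2 * (b * a) + C * nr ξ ^ 3 * a ^ 2 * wr ξ ^ (n + 1)

/-- (CF_ABS) the conclusion `s = σ · 1`: the gauge identity with `∂_j w_a = Es 0 (g j a)` small. -/
def RowABS : Prop := ∀ n : ℕ, ∃ (m M : ℕ) (ε : ℝ), 0 < ε ∧ ∀ (Ω : Set (V n))
  (σ : V n → ℝ) (s : MF n), Bk Ω σ s → (∀ j, Cl M ε (lg σ j)) →
  Cl M ε (fun x => (σ x)⁻¹ - 1) → ∀ g : Fin n → Fin n → Ix n → ℂ, (∀ i j, RD (g i j)) →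
  (∀ i j, nm (n + 1) (g i j) ≤ ε) →
  (∀ (ξ : V n) (a : Fin n), ∑ i, (ξ i : ℂ) * ft (fun x => df (sc σ) s i a x
    + ∑ j, df (sc σ) s i j x * Es 0 (g j a) x) ξ = 0) →
  (∀ i j, nm m (cf 0 (df (sc σ) s i j)) ≤ ε) → ∀ x, s x = sc σ x

/-- (CF_TOR) `div (s ∇ φ) = ψ` on the torus. -/
def RowTOR2 : Prop := ∀ n : ℕ, ∃ ε : ℝ, 0 < ε ∧ ∀ s : MF n, SmM s → (∀ x ∉ core n, s x = 1) →
  (∀ i j, nm 0 (cf 0 (ent s i j)) ≤ ε) → ∀ ψ : V n → ℂ, ContDiff ℝ ∞ ψ → tsupport ψ ⊆ cube n →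
  ∫ x, ψ x = 0 → ∃ c : Ix n → ℂ, RD c ∧ ∀ x ∈ cube n, dv s (Es 0 c) x = ψ x

/-- (CF_G2) harmonic coordinates of both tensors, equal off `Ω`. -/
def RowG2 : Prop := ∀ (n M : ℕ), ∃ C ε₀ : ℝ, 0 < C ∧ 0 < ε₀ ∧ ∀ (Ω : Set (V n)), IsOpen Ω →
  interior (closure Ω) = Ω → Ω ⊆ core n → ∀ s₁ s₂ : MF n, SmM s₁ → SmM s₂ →
  (∀ x, (s₁ x).IsSymm) → (∀ x, (s₂ x).IsSymm) → (∀ x ∉ core n, s₁ x = 1) →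
  (∀ x ∉ Ω, s₂ x = s₁ x) → St2 Ω s₁ s₂ → ∀ δ, 0 ≤ δ → δ ≤ ε₀ →
  (∀ i j, nm M (cf 0 (ent s₁ i j)) ≤ δ) → (∀ i j, nm M (cf 0 (ent s₂ i j)) ≤ δ) →
  ∃ (w₁ w₂ : V n → V n) (g : Fin n → Fin n → Ix n → ℂ), ContDiff ℝ ∞ w₁ ∧ ContDiff ℝ ∞ w₂ ∧
    Cl (M + 1) (C * δ) w₁ ∧ Cl (M + 1) (C * δ) w₂ ∧ (∀ x ∉ Ω, w₂ x = w₁ x) ∧
    (∀ a, ∀ x ∈ cube n, dv s₁ (fun y => ((y a + w₁ y a : ℝ) : ℂ)) x = 0) ∧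
    (∀ a, ∀ x ∈ cube n, dv s₂ (fun y => ((y a + w₂ y a : ℝ) : ℂ)) x = 0) ∧
    (∀ i j, RD (g i j) ∧ nm M (g i j) ≤ C * δ) ∧
    ∀ j a x, ((pd j w₁ x a : ℝ) : ℂ) = Es 0 (g j a) x

/-- (CF_PHI) the diffeomorphism `Φ = (id + w₁)⁻¹ ∘ (id + w₂)`. -/
def RowPHI : Prop := ∀ (n k : ℕ), ∃ C ε₀ : ℝ, 0 < C ∧ 0 < ε₀ ∧ ∀ (Ω : Set (V n))
  (w₁ w₂ : V n → V n), ContDiff ℝ ∞ w₁ → ContDiff ℝ ∞ w₂ → (∀ x ∉ Ω, w₂ x = w₁ x) →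
  ∀ δ, 0 ≤ δ → δ ≤ ε₀ → Cl (k + 2) δ w₁ → Cl (k + 2) δ w₂ → ∃ w K, Dif Ω w K ∧
    Cl (k + 1) (C * δ) w ∧ (∀ x, (x + w x) + w₁ (x + w x) = x + w₂ x) ∧
    ∀ (f : V n → ℝ), ContDiff ℝ ∞ f → ∀ η, Cl k η f → Cl k (C * η) (fun y => f (K y))

/-- (CF_PUSH) the push-forward: smooth, symmetric, `s₁` off `Ω`, orthogonality, gauge identity. -/
def RowPU2 : Prop := ∀ {n : ℕ} (Ω : Set (V n)), IsOpen Ω → Ω ⊆ core n →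
  interior (closure Ω) = Ω → ∀ s₁ s₂ : MF n, SmM s₁ → SmM s₂ → (∀ x, (s₁ x).IsSymm) →
  (∀ x, (s₂ x).IsSymm) → (∀ x ∉ Ω, s₂ x = s₁ x) → ∀ w K, Dif Ω w K →
  SmM (psh s₂ w K) ∧ (∀ x, (psh s₂ w K x).IsSymm) ∧ (∀ x ∉ Ω, psh s₂ w K x = s₁ x) ∧
    (St2 Ω s₁ s₂ → St2 Ω s₁ (psh s₂ w K)) ∧
    ∀ w₁ w₂ : V n → V n, ContDiff ℝ ∞ w₁ → ContDiff ℝ ∞ w₂ →
      (∀ x, (x + w x) + w₁ (x + w x) = x + w₂ x) →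
      (∀ a, ∀ x ∈ Ω, dv s₁ (fun y => ((y a + w₁ y a : ℝ) : ℂ)) x = 0) →
      (∀ a, ∀ x ∈ Ω, dv s₂ (fun y => ((y a + w₂ y a : ℝ) : ℂ)) x = 0) →
      ∀ (ξ : V n) (a : Fin n), ∑ i, (ξ i : ℂ) * ft (fun x => df s₁ (psh s₂ w K) i a x
        + ∑ j, df s₁ (psh s₂ w K) i j x * ((pd j w₁ x a : ℝ) : ℂ)) ξ = 0

/-- (CF_STAR) equal data give the orthogonality identity. -/
def RowST2 : Prop := ∀ {n : ℕ} (Ω : Set (V n)), IsOpen Ω → Bornology.IsBounded Ω →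
  ∀ s₁ s₂ : MF n, SmM s₁ → SmM s₂ → (∀ x, (s₁ x).IsSymm) → (∀ x, (s₂ x).IsSymm) →
  SD Ω s₁ s₂ → St2 Ω s₁ s₂

/-- (CF_ISO) the conclusion for a conformally flat background. -/
def RowIS2 : Prop := ∀ {n : ℕ}, 3 ≤ n → ∀ (Ω : Set (V n)) (c : V n → ℝ) (g : MF n),
  (∀ x, 0 < c x) → (∀ x, (g x).PosDef) → ∀ w K, Dif Ω w K →
  (∀ x, psh (sg g) w K x = sg (sc c) x) → ∀ x, g x = c (x + w x) • ((jm w x)ᵀ * jm w x)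

/-- Local rigidity of the conformally flat metrics near the flat one. -/
def Loc2 (n k : ℕ) (ε : ℝ) : Prop := ∀ (Ω : Set (V n)), IsOpen Ω →
  interior (closure Ω) = Ω → Ω ⊆ bal n → ∀ (c : V n → ℝ) (g : MF n), ContDiff ℝ ∞ c →
  (∀ x, 0 < c x) → (∀ x ∉ bal n, c x = 1) → SmM g → (∀ x, (g x).PosDef) →
  (∀ x ∉ Ω, g x = sc c x) → Cl k ε (fun x => c x - 1) →
  (∀ i j, Cl k ε (fun x => g x i j - (1 : Matrix (Fin n) (Fin n) ℝ) i j)) →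
  SD Ω (sg (sc c)) (sg g) → ∃ w K, Dif Ω w K ∧ ∀ x, g x = c (x + w x) • ((jm w x)ᵀ * jm w x)

end Vale.Agent.P088.LR.CF
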