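import Vale.Agent.P088.H442.CFAsm
import Vale.Agent.P088.H925.Scale
import Vale.Agent.P088.H158.PushB

/-!
# P088, Theorem CF: cut-off of the conformal factor and dilation
-/

open MeasureTheory Set
open scoped ContDiff Matrix

noncomputable section

namespace Vale.Agent.P088.LR.CF

open Vale.Agent.P088.LR.H925

variable {n : ℕ}

/-- The cut-off: `1` on the ball of radius `1/8`, `0` off the ball of radius `1/4`. -/
def chi442 (x : V n) : ℝ := Real.smoothTransition ((1 / 16 - ∑ j, (x j - 1 / 2) ^ 2) * (64 / 3))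

theorem chi_smooth442 : ContDiff ℝ ∞ (chi442 : V n → ℝ) := by
  unfold chi442
  refine Real.smoothTransition.contDiff.comp ?_
  refine ContDiff.mul (contDiff_const.sub ?_) contDiff_const
  exact ContDiff.sum fun j _ => ((contDiff_apply ℝ ℝ j).sub contDiff_const).pow 2

theorem chi_nonneg442 (x : V n) : 0 ≤ chi442 x := Real.smoothTransition.nonneg _

theorem chi_le_one442 (x : V n) : chi442 x ≤ 1 := Real.smoothTransition.le_one _

theorem chi_one442 {x : V n} (h : ∑ j, (x j - 1 / 2) ^ 2 ≤ 1 / 64) : chi442 x = 1 :=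
  Real.smoothTransition.one_of_one_le (by nlinarith)

theorem chi_zero442 {x : V n} (h : x ∉ bal n) : chi442 x = 0 := by
  have h1 : 1 / 16 < ∑ j, (x j - 1 / 2) ^ 2 := by
    by_contra hc
    exact h (not_lt.1 hc)
  exact Real.smoothTransition.zero_of_nonpos (by nlinarith)

theorem chi_cl442 (n k : ℕ) : ∃ B : ℝ, 0 < B ∧ Cl k B (chi442 : V n → ℝ) := by
  have hc : HasCompactSupport (chi442 : V n → ℝ) := by
    refine HasCompactSupport.of_support_subset_isCompact H129.isCompact_core ?_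
    intro x hx
    by_contra h
    exact hx (chi_zero442 fun h' => h (bal_subset_core442 h'))
  have h : ∀ l : ℕ, ∃ C, ∀ x : V n, ‖iteratedFDeriv ℝ l chi442 x‖ ≤ C := fun l =>
    (chi_smooth442.continuous_iteratedFDeriv (by exact_mod_cast le_top)).bounded_above_of_compact_support
      (hc.iteratedFDeriv l)
  choose C hC using h
  refine ⟨1 + ∑ l ∈ Finset.range (k + 1), |C l|, by positivity, fun l hl x => ?_⟩
  calc ‖iteratedFDeriv ℝ l chi442 x‖ ≤ C l := hC l x
    _ ≤ |C l| := le_abs_self _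
    _ ≤ ∑ l ∈ Finset.range (k + 1), |C l| :=
      Finset.single_le_sum (f := fun l => |C l|) (fun i _ => abs_nonneg _)
        (Finset.mem_range.mpr (by omega))
    _ ≤ _ := by linarith

theorem cl_mul442 {k : ℕ} {a b : ℝ} {f g : V n → ℝ} (hf : ContDiff ℝ ∞ f) (hg : ContDiff ℝ ∞ g)
    (h1 : Cl k a f) (h2 : Cl k b g) : Cl k (2 ^ k * (a * b)) (fun x => f x * g x) := by
  have ha : 0 ≤ a := (norm_nonneg _).trans (h1 0 (Nat.zero_le _) 0)
  have hb : 0 ≤ b := (norm_nonneg _).trans (h2 0 (Nat.zero_le _) 0)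
  intro l hl x
  refine (norm_iteratedFDeriv_mul_le (hf.of_le (by exact_mod_cast le_top) : ContDiff ℝ l f)
    (hg.of_le (by exact_mod_cast le_top)) x le_rfl).trans ?_
  calc ∑ i ∈ Finset.range (l + 1), (l.choose i : ℝ) * ‖iteratedFDeriv ℝ i f x‖
        * ‖iteratedFDeriv ℝ (l - i) g x‖
      ≤ ∑ i ∈ Finset.range (l + 1), (l.choose i : ℝ) * (a * b) := by
        refine Finset.sum_le_sum fun i hi => ?_
        rw [Finset.mem_range] at hi
        have h3 := h1 i (by omega) x
        have h4 := h2 (l - i) (by omega) x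
        rw [mul_assoc]
        gcongr
    _ = 2 ^ l * (a * b) := by
        rw [← Finset.sum_mul]
        congr 1
        exact_mod_cast Nat.sum_range_choose l
    _ ≤ 2 ^ k * (a * b) := by
        have : (2 : ℝ) ^ l ≤ 2 ^ k := pow_le_pow_right₀ (by norm_num) hl
        gcongr

/-- `dv` depends only on the germ of the tensor. -/
theorem dv_germ442 {s s' : MF n} {x : V n} (h : s =ᶠ[nhds x] s') (W : V n → ℂ) :
    dv s W x = dv s' W x := by
  unfold dv
  refine Finset.sum_congr rfl fun i _ => ?_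
  unfold pd
  have h1 : (fun y => ∑ j, (s y i j : ℂ) * (fderiv ℝ W y (Pi.single j 1))) =ᶠ[nhds x]
      fun y => ∑ j, (s' y i j : ℂ) * (fderiv ℝ W y (Pi.single j 1)) := by
    filter_upwards [h] with y hy
    rw [hy]
  rw [h1.fderiv_eq]

theorem pd_const_mul442 (a : ℂ) {F : V n → ℂ} (hF : Differentiable ℝ F) (i : Fin n) (x : V n) :
    pd i (fun y => a * F y) x = a * pd i F x := by
  unfold pd
  rw [fderiv_const_mul (hF x)]
  rfl

/-- `dv` under the dilation. -/
theorem dv_ph442 {t : ℝ} (ht : t ≠ 0) {s : MF n} (hs : SmM s) {U : V n → ℂ}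
    (hU : ContDiff ℝ ∞ U) (x : V n) :
    dv s (fun x => U (ph t x)) x = ((t⁻¹ : ℝ) : ℂ) ^ 2 * dv (rs t s) U (ph t x) := by
  have hpdU : ∀ j, ContDiff ℝ ∞ (pd j U) := fun j => H158.contDiff_pd hU j
  have hfl : ∀ i, ContDiff ℝ ∞ (fun y => ∑ j, (rs t s y i j : ℂ) * pd j U y) := fun i =>
    ContDiff.sum fun j _ => (Complex.ofRealCLM.contDiff.comp
      ((hs i j).comp (contDiff_ps t))).mul (hpdU j)
  unfold dv
  rw [Finset.mul_sum]
  refine Finset.sum_congr rfl fun i _ => ?_
  obtain ⟨F, hF⟩ : ∃ F : V n → ℂ, F = fun y => ∑ j, (rs t s y i j : ℂ) * pd j U y := ⟨_, rfl⟩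
  have hFd : Differentiable ℝ F := by
    rw [hF]; exact (hfl i).differentiable (by simp)
  have h1 : (fun y => ∑ j, (s y i j : ℂ) * pd j (fun x => U (ph t x)) y)
      = fun y => ((t⁻¹ : ℝ) : ℂ) * F (ph t y) := by
    funext y
    simp only [hF, Finset.mul_sum]
    refine Finset.sum_congr rfl fun j _ => ?_
    rw [pd_ph j (hU.differentiable (by simp)) t y, rs, ps_ph ht, Complex.real_smul]
    ring
  rw [h1, ← hF]
  have h5 : Differentiable ℝ (fun y => F (ph t y)) :=
    hFd.comp ((contDiff_ph t).differentiable (by simp))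
  rw [pd_const_mul442 _ h5, pd_ph i hFd t x, Complex.real_smul]
  ring

/-- Rigidity of the conformal tensors near `1`, domains in the box of radius `R`. -/
def RigB (n k : ℕ) (ε R : ℝ) : Prop := ∀ (Ω : Set (V n)), IsOpen Ω →
  interior (closure Ω) = Ω → (∀ x ∈ Ω, ∀ j, |x j| ≤ R) → ∀ (σ : V n → ℝ) (s : MF n),
  ContDiff ℝ ∞ σ → (∀ x, 0 < σ x) → SmM s → (∀ x, (s x).IsSymm) →
  (∀ x ∉ Ω, s x = sc σ x) → Cl k ε (fun x => σ x - 1) →
  (∀ i j, Cl k ε (fun x => s x i j - (1 : Matrix (Fin n) (Fin n) ℝ) i j)) →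
  St2 Ω (sc σ) s → ∃ w K, Dif Ω w K ∧ ∀ x, psh s w K x = sc σ x

theorem rigB_of_rig2_442 {n k : ℕ} {ε : ℝ} (hε : 0 < ε) (h : Rig2 n k ε) {R : ℝ} (hR : 0 < R) :
    ∃ ε' > 0, RigB n k ε' R := by
  obtain ⟨B, hB, hχ⟩ := chi_cl442 n k
  set t : ℝ := 8 * (n + 1) * R with ht
  have ht0 : 0 < t := by positivity
  have hM : 0 < max 1 t ^ k := by positivity
  refine ⟨ε / (2 ^ k * (B * max 1 t ^ k)), by positivity, ?_⟩
  intro Ω hΩ hreg hΩR σ s hσ hσ0 hs hsy hoff hσc hsc hst
  set Ω' : Set (V n) := ps t ⁻¹' Ω with hΩ'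
  have hO' : IsOpen Ω' := hΩ.preimage (contDiff_ps t).continuous
  have hreg' : interior (closure Ω') = Ω' := by
    have e1 := (hm (n := n) t ht0.ne').preimage_closure Ω
    have e2 := (hm (n := n) t ht0.ne').preimage_interior (closure Ω)
    have e3 : (hm (n := n) t ht0.ne') ⁻¹' Ω = Ω' := rfl
    rw [e1, e3, hreg, e3] at e2
    exact e2.symm
  have hsm : ∀ y ∈ Ω', ∑ j, (y j - 1 / 2) ^ 2 ≤ 1 / 64 := by
    intro y hy
    have h1 : ∀ j, (y j - 1 / 2) ^ 2 ≤ (1 / (8 * (n + 1))) ^ 2 := by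
      intro j
      have h2 := hΩR _ hy j
      simp only [ps, Pi.smul_apply, Pi.sub_apply, smul_eq_mul] at h2
      rw [abs_mul, abs_of_pos ht0, ht] at h2
      have h3 : |y j - 1 / 2| ≤ 1 / (8 * (n + 1)) := by
        rw [le_div_iff₀ (by positivity)]
        have h4 : |y j - 1 / 2| * (8 * (n + 1)) * R ≤ 1 * R := by
          calc |y j - 1 / 2| * (8 * (n + 1)) * R = 8 * (n + 1) * R * |y j - 1 / 2| := by ring
            _ ≤ R := h2
            _ = 1 * R := by ring
        exact le_of_mul_le_mul_right h4 hR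
      rw [← sq_abs]
      exact pow_le_pow_left₀ (abs_nonneg _) h3 2
    calc ∑ j, (y j - 1 / 2) ^ 2 ≤ ∑ _j : Fin n, (1 / (8 * ((n : ℝ) + 1))) ^ 2 :=
          Finset.sum_le_sum fun j _ => h1 j
      _ = n * (1 / (8 * ((n : ℝ) + 1))) ^ 2 := by simp
      _ ≤ 1 / 64 := by
          have hn : (0 : ℝ) ≤ n := Nat.cast_nonneg n
          rw [div_pow, one_pow, mul_one_div, div_le_div_iff₀ (by positivity) (by norm_num)]
          nlinarith
  have hb' : Ω' ⊆ bal n := fun y hy => by
    have := hsm y hy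
    show ∑ j, (y j - 1 / 2) ^ 2 ≤ 1 / 16
    linarith
  have hχ1 : ∀ y ∈ Ω', chi442 y = 1 := fun y hy => chi_one442 (hsm y hy)
  -- the cut-off data
  set σ' : V n → ℝ := fun y => 1 + chi442 y * (σ (ps t y) - 1) with hσ'
  set s' : MF n := fun y => 1 + chi442 y • (s (ps t y) - 1) with hs'
  have hσps : ContDiff ℝ ∞ (fun y => σ (ps t y) - 1) :=
    (hσ.comp (contDiff_ps t)).sub contDiff_const
  have hσ's : ContDiff ℝ ∞ σ' := contDiff_const.add (chi_smooth442.mul hσps)
  have hσ'0 : ∀ y, 0 < σ' y := by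
    intro y
    have h1 := chi_nonneg442 y
    have h2 := chi_le_one442 y
    have h3 := hσ0 (ps t y)
    show 0 < 1 + chi442 y * (σ (ps t y) - 1)
    have h4 : 1 + chi442 y * (σ (ps t y) - 1) = (1 - chi442 y) + chi442 y * σ (ps t y) := by ring
    rw [h4]
    rcases h2.lt_or_eq with h5 | h5
    · have := mul_nonneg h1 h3.le
      linarith
    · rw [h5]; linarith
  have hσ'1 : ∀ y ∉ bal n, σ' y = 1 := by
    intro y hy
    show 1 + chi442 y * (σ (ps t y) - 1) = 1
    rw [chi_zero442 hy]; ring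
  have hs'e : ∀ y i j, s' y i j - (1 : Matrix (Fin n) (Fin n) ℝ) i j
      = chi442 y * (s (ps t y) i j - (1 : Matrix (Fin n) (Fin n) ℝ) i j) := by
    intro y i j
    show (1 + chi442 y • (s (ps t y) - 1)) i j - _ = _
    rw [Matrix.add_apply, Matrix.smul_apply, Matrix.sub_apply, smul_eq_mul]
    ring
  have hs's : SmM s' := by
    intro i j
    have h1 : (fun y => s' y i j) = fun y => (1 : Matrix (Fin n) (Fin n) ℝ) i j
        + chi442 y * (s (ps t y) i j - (1 : Matrix (Fin n) (Fin n) ℝ) i j) := by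
      funext y
      have := hs'e y i j
      linarith
    rw [h1]
    exact contDiff_const.add (chi_smooth442.mul
      (((hs i j).comp (contDiff_ps t)).sub contDiff_const))
  have hs'y : ∀ y, (s' y).IsSymm := by
    intro y
    show (1 + chi442 y • (s (ps t y) - 1)).IsSymm
    rw [Matrix.IsSymm, Matrix.transpose_add, Matrix.transpose_smul, Matrix.transpose_sub,
      Matrix.transpose_one, (hsy _).eq]
  have hs'off : ∀ y ∉ Ω', s' y = sc σ' y := by
    intro y hy
    have h1 : s (ps t y) = sc σ (ps t y) := hoff _ hy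
    show 1 + chi442 y • (s (ps t y) - 1) = (1 + chi442 y * (σ (ps t y) - 1)) • 1
    rw [h1]
    unfold sc
    rw [add_smul, one_smul, mul_smul, sub_smul, one_smul]
  have hs'on : ∀ y ∈ Ω', s' y = rs t s y := by
    intro y hy
    show 1 + chi442 y • (s (ps t y) - 1) = s (ps t y)
    rw [hχ1 y hy, one_smul]
    abel
  have hσ'on : ∀ y ∈ Ω', sc σ' y = rs t (sc σ) y := by
    intro y hy
    show (1 + chi442 y * (σ (ps t y) - 1)) • (1 : Matrix (Fin n) (Fin n) ℝ) = σ (ps t y) • 1
    rw [hχ1 y hy]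
    congr 1
    ring
  have hfin : 2 ^ k * (B * (max 1 t ^ k * (ε / (2 ^ k * (B * max 1 t ^ k))))) = ε := by
    field_simp
  have hσ'c : Cl k ε (fun y => σ' y - 1) := by
    have h1 := cl_mul442 chi_smooth442 hσps hχ
      (cl_ps (hσ.sub contDiff_const) ht0 hσc)
    rw [hfin] at h1
    have h2 : (fun y => σ' y - 1) = fun y => chi442 y * (σ (ps t y) - 1) := by
      funext y
      show 1 + chi442 y * (σ (ps t y) - 1) - 1 = _
      ring
    rw [h2]; exact h1
  have hs'c : ∀ i j, Cl k ε (fun y => s' y i j - (1 : Matrix (Fin n) (Fin n) ℝ) i j) := by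
    intro i j
    have h1 := cl_mul442 chi_smooth442 (((hs i j).comp (contDiff_ps t)).sub contDiff_const) hχ
      (cl_ps ((hs i j).sub contDiff_const) ht0 (hsc i j))
    rw [hfin] at h1
    have h2 : (fun y => s' y i j - (1 : Matrix (Fin n) (Fin n) ℝ) i j)
        = fun y => chi442 y * (s (ps t y) i j - (1 : Matrix (Fin n) (Fin n) ℝ) i j) :=
      funext fun y => hs'e y i j
    rw [h2]; exact h1
  have hst' : St2 Ω' (sc σ') s' := by
    intro U W hU hW hdU hdW
    have g1 : ∀ x ∈ Ω, dv (sc σ) (fun x => U (ph t x)) x = 0 := by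
      intro x hx
      have hy : ph t x ∈ Ω' := by
        show ps t (ph t x) ∈ Ω
        rw [ps_ph ht0.ne']; exact hx
      rw [dv_ph442 ht0.ne' (smM_sc442 hσ) hU x]
      have h1 : rs t (sc σ) =ᶠ[nhds (ph t x)] sc σ' := by
        filter_upwards [hO'.mem_nhds hy] with y hy
        exact (hσ'on y hy).symm
      rw [dv_germ442 h1, hdU _ hy, mul_zero]
    have g2 : ∀ x ∈ Ω, dv s (fun x => W (ph t x)) x = 0 := by
      intro x hx
      have hy : ph t x ∈ Ω' := by
        show ps t (ph t x) ∈ Ω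
        rw [ps_ph ht0.ne']; exact hx
      rw [dv_ph442 ht0.ne' hs hW x]
      have h1 : rs t s =ᶠ[nhds (ph t x)] s' := by
        filter_upwards [hO'.mem_nhds hy] with y hy
        exact (hs'on y hy).symm
      rw [dv_germ442 h1, hdW _ hy, mul_zero]
    have g3 := hst (fun x => U (ph t x)) (fun x => W (ph t x)) (hU.comp (contDiff_ph t))
      (hW.comp (contDiff_ph t)) g1 g2
    have g4 := bl_ps t Ω hΩ.measurableSet (fun x => s x - sc σ x) (fun x => U (ph t x))
      (fun x => W (ph t x)) ((hU.comp (contDiff_ph t)).differentiable (by simp))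
      ((hW.comp (contDiff_ph t)).differentiable (by simp))
    rw [g3, mul_zero] at g4
    have g5 : (fun y => (fun x => U (ph t x)) (ps t y)) = U := by
      funext y
      simp only [ph_ps ht0.ne']
    have g6 : (fun y => (fun x => W (ph t x)) (ps t y)) = W := by
      funext y
      simp only [ph_ps ht0.ne']
    rw [g5, g6] at g4
    rw [← g4]
    unfold bl
    refine setIntegral_congr_fun hO'.measurableSet fun y hy => ?_
    simp only [hs'on y hy, hσ'on y hy, rs]
  obtain ⟨w, K, hD, hpsh⟩ := h Ω' hO' hreg' hb' σ' s' hσ's hσ'0 hσ'1 hs's hs'y hs'off hσ'c hs'c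
    hst'
  -- back to the original tensors
  have hkey : ∀ y, psh (rs t s) w K y = rs t (sc σ) y := by
    intro y
    by_cases hy : y ∈ Ω'
    · have hKy : K y ∈ Ω' := H158.K_mem hD hy
      have h1 := hpsh y
      unfold psh at h1 ⊢
      rw [hs'on _ hKy, hσ'on y hy] at h1
      exact h1
    · have hKy : K y = y := H158.K_off hD hy
      unfold psh
      rw [hKy, H158.jm_off hD hreg' hy]
      simp only [Matrix.det_one, inv_one, one_smul, Matrix.transpose_one, Matrix.one_mul,
        Matrix.mul_one]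
      exact hoff _ hy
  have ew : ∀ x, x + t • w (ph t x) = ps t (ph t x + w (ph t x)) := by
    intro x
    conv_lhs => rw [← ps_ph ht0.ne' x]
    rw [ph_ps ht0.ne']
    simp only [ps, smul_sub, smul_add]
    abel
  have ejm : ∀ x, jm (fun x => t • w (ph t x)) x = jm w (ph t x) := by
    intro x
    funext i j
    simp only [jm]
    have hd : Differentiable ℝ (fun y => t • w y) :=
      (hD.sw.differentiable (by simp)).const_smul t
    have e := pd_ph j hd t x
    have e' : pd j (fun y => t • w y) (ph t x) = t • pd j w (ph t x) := by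
      unfold pd
      rw [fderiv_fun_const_smul (hD.sw.differentiable (by simp) _)]
      rfl
    rw [e, e', smul_smul, inv_mul_cancel₀ ht0.ne', one_smul]
  refine ⟨fun x => t • w (ph t x), fun x => ps t (K (ph t x)), ⟨?_, ?_, ?_, ?_, ?_, ?_⟩, ?_⟩
  · exact (hD.sw.comp (contDiff_ph t)).const_smul t
  · exact (contDiff_ps t).comp (hD.sK.comp (contDiff_ph t))
  · intro x
    show ps t (K (ph t (x + t • w (ph t x)))) = x
    rw [ew, ph_ps ht0.ne', hD.l, ps_ph ht0.ne']
  · intro y
    show ps t (K (ph t y)) + t • w (ph t (ps t (K (ph t y)))) = y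
    rw [ew, ph_ps ht0.ne', hD.r, ps_ph ht0.ne']
  · intro x hx
    show t • w (ph t x) = 0
    rw [hD.z, smul_zero]
    intro h
    apply hx
    have : ps t (ph t x) ∈ Ω := h
    rwa [ps_ph ht0.ne'] at this
  · intro x
    rw [ejm]
    exact hD.dp _
  · intro x
    have h1 := hkey (ph t x)
    unfold psh at h1 ⊢
    rw [ejm]
    show (jm w (ph t (ps t (K (ph t x))))).det⁻¹ • (jm w (ph t (ps t (K (ph t x))))
      * s (ps t (K (ph t x))) * (jm w (ph t (ps t (K (ph t x)))))ᵀ) = sc σ x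
    rw [ph_ps ht0.ne']
    simp only [rs, ps_ph ht0.ne'] at h1
    exact h1

end Vale.Agent.P088.LR.CF
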