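import Vale.Agent.P088.H442.CFScale

/-!
# P088, Theorem CF for metrics on bounded domains of any size
-/

open MeasureTheory Set
open scoped ContDiff Matrix

noncomputable section

namespace Vale.Agent.P088.LR.CF

variable {n : ℕ}

/-- The statement for metrics with the hypothesis `P` on the data; domains in the box of
radius `R`. -/
def LocB (n : ℕ) (P : Set (V n) → MF n → MF n → Prop) (k : ℕ) (ε R : ℝ) : Prop :=
  ∀ (Ω : Set (V n)), IsOpen Ω → interior (closure Ω) = Ω → (∀ x ∈ Ω, ∀ j, |x j| ≤ R) →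
  ∀ (c : V n → ℝ) (g : MF n), ContDiff ℝ ∞ c → (∀ x, 0 < c x) → SmM g → (∀ x, (g x).PosDef) →
  (∀ x ∉ Ω, g x = sc c x) → Cl k ε (fun x => c x - 1) →
  (∀ i j, Cl k ε (fun x => g x i j - (1 : Matrix (Fin n) (Fin n) ℝ) i j)) →
  P Ω (sg (sc c)) (sg g) → ∃ w K, Dif Ω w K ∧ ∀ x, g x = c (x + w x) • ((jm w x)ᵀ * jm w x)

/-- From tensors in the unit scale to metrics on any bounded domain. -/
theorem locB_of_rig442 (hN0 : RowNORM0) (hIS : RowIS2)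
    (hR : ∀ n : ℕ, ∃ (k : ℕ) (ε : ℝ), 0 < ε ∧ Rig2 n k ε) :
    ∀ n : ℕ, 3 ≤ n → ∃ k : ℕ, ∀ R : ℝ, 0 < R → ∃ ε > 0, LocB n St2 k ε R := by
  intro n hn
  obtain ⟨k, ε, hε, hrig⟩ := hR n
  refine ⟨k, fun R hR0 => ?_⟩
  obtain ⟨ε', hε', hB⟩ := rigB_of_rig2_442 hε hrig hR0
  obtain ⟨δ0, hδ0, hnorm0⟩ := hN0 n k ε' hε'
  obtain ⟨δs, hδs, hsml⟩ := small_sgm442 n k hε'
  refine ⟨min δ0 δs, lt_min hδ0 hδs, ?_⟩
  intro Ω hΩ hreg hΩb c g hc hcpos hg hpos hoff hccl hgcl hst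
  have hs1e : sg (sc c) = sc (sgm442 c) := sg_sc442 hcpos
  have hoff2 : ∀ x ∉ Ω, sg g x = sc (sgm442 c) x := by
    intro x hx
    rw [← hs1e]
    unfold sg
    rw [hoff x hx]
  rw [hs1e] at hst
  obtain ⟨w, K, hD, hone⟩ := hB Ω hΩ hreg hΩb (sgm442 c) (sg g) (sgm_smooth442 hc hcpos)
    (sgm_pos442 hcpos) (H442.smM_sg442 hg hpos) (H442.symm_sg442 hpos) hoff2
    (hsml c hc (H72.cl_mono hccl (min_le_right _ _)))
    (hnorm0 g hg fun i j => H72.cl_mono (hgcl i j) (min_le_left _ _)) hst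
  refine ⟨w, K, hD, hIS hn Ω c g hcpos hpos w K hD fun x => ?_⟩
  rw [hone x, hs1e]

/-- Any hypothesis on the data which implies the orthogonality identity. -/
theorem locB_mono442 {P : Set (V n) → MF n → MF n → Prop} {k : ℕ} {ε R : ℝ}
    (hP : ∀ (Ω : Set (V n)), IsOpen Ω → Bornology.IsBounded Ω → ∀ s₁ s₂ : MF n, SmM s₁ → SmM s₂ →
      (∀ x, (s₁ x).IsSymm) → (∀ x, (s₂ x).IsSymm) → P Ω s₁ s₂ → St2 Ω s₁ s₂)
    (h : LocB n St2 k ε R) : LocB n P k ε R := by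
  intro Ω hΩ hreg hΩb c g hc hcpos hg hpos hoff hccl hgcl hsd
  have hbd : Bornology.IsBounded Ω := by
    refine (Metric.isBounded_Icc (fun _ : Fin n => -R) (fun _ => R)).subset fun x hx => ?_
    have h1 := fun j => abs_le.1 (hΩb x hx j)
    exact ⟨fun j => (h1 j).1, fun j => (h1 j).2⟩
  have hs1 : SmM (sg (sc c)) := H442.smM_sg442 (smM_sc442 hc) (posDef_sc442 hcpos)
  exact h Ω hΩ hreg hΩb c g hc hcpos hg hpos hoff hccl hgcl
    (hP Ω hΩ hbd _ _ hs1 (H442.smM_sg442 hg hpos) (H442.symm_sg442 (posDef_sc442 hcpos))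
      (H442.symm_sg442 hpos) hsd)

/-- **Theorem CF from the rows**: equal Dirichlet-to-Neumann forms. -/
theorem cf442 (hA3 : RowA3) (hN0 : RowNORM0) (hN1 : RowNORM1) (hG2 : RowG2)
    (hPHI : RowPHI) (hPU : RowPU2) (hABS : RowABS) (hST : RowST2) (hIS : RowIS2) :
    ∀ n : ℕ, 3 ≤ n → ∃ k : ℕ, ∀ R : ℝ, 0 < R → ∃ ε > 0, LocB n SD k ε R := by
  intro n hn
  obtain ⟨k, hk⟩ := locB_of_rig442 hN0 hIS
    (rig2_of_rows442 hA3 hN1 hG2 hPHI hPU hABS) n hn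
  refine ⟨k, fun R hR => ?_⟩
  obtain ⟨ε, hε, h⟩ := hk R hR
  exact ⟨ε, hε, locB_mono442 hST h⟩

end Vale.Agent.P088.LR.CF
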