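import Vale.Agent.P088.H198.Defs
import Vale.Agent.P088.H72.Norm
import Vale.Agent.P088.H129.Core
import Vale.Agent.P088.H884.Iso

/-!
# P088, local rigidity: assembly of the scalar theorem from the rows

`asm442` is the chain with the orthogonality identity `Star` as only data; `top442` has the
Dirichlet-to-Neumann data `SD`.
-/

open MeasureTheory Set
open scoped ContDiff Matrix

noncomputable section

namespace Vale.Agent.P088.LR.H442

variable {n : ℕ}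

/-- Row GAUGE with a nonnegative `δ`. -/
def Gauge442 : Prop := ∀ (n M : ℕ), ∃ C ε₀ : ℝ, 0 < C ∧ 0 < ε₀ ∧ ∀ (Ω : Set (V n)), IsOpen Ω →
  interior (closure Ω) = Ω → Ω ⊆ core n → ∀ s : MF n, SmM s → (∀ x, (s x).IsSymm) →
  (∀ x ∉ Ω, s x = 1) → Star Ω s → ∀ δ, 0 ≤ δ → δ ≤ ε₀ →
  (∀ i j, nm M (cf 0 (ent s i j)) ≤ δ) →
  ∃ w : V n → V n, ContDiff ℝ ∞ w ∧ (∀ x ∉ Ω, w x = 0) ∧ Cl (M + 1) (C * δ) w ∧
    ∀ a x, dv s (fun y => ((y a + w y a : ℝ) : ℂ)) x = 0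

/-- `√(det g) g⁻¹` is smooth if `g` is smooth and positive definite. -/
theorem smM_sg442 {g : MF n} (hg : SmM g) (hp : ∀ x, (g x).PosDef) : SmM (sg g) := by
  intro i j
  have hdet : ContDiff ℝ ∞ (fun x => (g x).det) := H72.cd_det hg
  have h1 : (fun x => sg g x i j) =
      (fun x => √(g x).det * (((g x).det)⁻¹ * (g x).adjugate i j)) := by
    funext x
    unfold sg
    rw [Matrix.smul_apply, smul_eq_mul, Matrix.inv_def, Ring.inverse_eq_inv', Matrix.smul_apply,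
      smul_eq_mul]
  rw [h1]
  refine ContDiff.mul ?_ (ContDiff.mul ?_ (H72.cd_adj hg _ _))
  · exact hdet.sqrt fun x => ne_of_gt (hp x).det_pos
  · exact hdet.inv fun x => ne_of_gt (hp x).det_pos

/-- `√(det g) g⁻¹` is symmetric. -/
theorem symm_sg442 {g : MF n} (hp : ∀ x, (g x).PosDef) (x : V n) : (sg g x).IsSymm := by
  have h1 : (g x).IsSymm := by
    have h2 := (hp x).1
    rw [Matrix.IsHermitian, Matrix.conjTranspose_eq_transpose_of_trivial] at h2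
    exact h2
  unfold sg
  rw [Matrix.IsSymm, Matrix.transpose_smul, Matrix.transpose_nonsing_inv, h1.eq]

theorem sg_one442 {g : MF n} {x : V n} (h : g x = 1) : sg g x = 1 := by
  unfold sg
  rw [h, Matrix.det_one, Real.sqrt_one, inv_one, one_smul]

/-- Complexification does not change the derivative bounds. -/
theorem cl_ent442 {s : MF n} {k : ℕ} {B : ℝ} (hs : SmM s) (i j : Fin n)
    (h : Cl k B (fun x => s x i j - (1 : Matrix (Fin n) (Fin n) ℝ) i j)) :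
    Cl k B (ent s i j) := by
  intro l hl x
  have h1 : ContDiff ℝ l (fun x => s x i j - (1 : Matrix (Fin n) (Fin n) ℝ) i j) :=
    ((hs i j).sub contDiff_const).of_le (by exact_mod_cast le_top)
  have h2 : ent s i j
      = Complex.ofRealLI ∘ (fun x => s x i j - (1 : Matrix (Fin n) (Fin n) ℝ) i j) := rfl
  rw [h2, Complex.ofRealLI.norm_iteratedFDeriv_comp_left h1.contDiffAt le_rfl]
  exact h l hl x

theorem cl_le442 {F : Type*} [NormedAddCommGroup F] [NormedSpace ℝ F] {k k' : ℕ} {a b : ℝ}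
    {f : V n → F} (h : Cl k a f) (hk : k' ≤ k) (hab : a ≤ b) : Cl k' b f :=
  fun l hl x => (h l (hl.trans hk) x).trans hab

/-- The chain of the rows: a metric near the flat one with the orthogonality identity, kept by
push-forwards, is the pull-back of the flat one. -/
theorem asm442 (hA3 : RowA3) (hCORE : RowCORE) (hG : Gauge442) (hDIF : RowDIF)
    (hP : ∀ {n : ℕ} (Ω : Set (V n)), IsOpen Ω → Bornology.IsBounded Ω →
      interior (closure Ω) = Ω → ∀ s : MF n, SmM s → (∀ x, (s x).IsSymm) → (∀ x ∉ Ω, s x = 1) →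
      ∀ w K, Dif Ω w K → SmM (psh s w K) ∧ (∀ x, (psh s w K x).IsSymm) ∧
        (∀ x ∉ Ω, psh s w K x = 1) ∧
        ((∀ a x, dv s (fun y => ((y a + w y a : ℝ) : ℂ)) x = 0) →
          ∀ (ξ : V n) j, ∑ i, (ξ i : ℂ) * ft (ent (psh s w K) i j) ξ = 0))
    (hN1 : RowNORM1) (hN0 : RowNORM0) (hISO : RowISO) :
    ∀ n : ℕ, 3 ≤ n → ∃ (k : ℕ) (ε : ℝ), 0 < ε ∧ ∀ (Ω : Set (V n)), IsOpen Ω →
      interior (closure Ω) = Ω → Ω ⊆ core n → ∀ g : MF n, SmM g → (∀ x, (g x).PosDef) →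
      (∀ x ∉ Ω, g x = 1) →
      (∀ i j, Cl k ε (fun x => g x i j - (1 : Matrix (Fin n) (Fin n) ℝ) i j)) →
      Star Ω (sg g) → (∀ w K, Dif Ω w K → Star Ω (psh (sg g) w K)) →
      ∃ w K, Dif Ω w K ∧ ∀ x, g x = (jm w x)ᵀ * jm w x := by
  intro n hn
  obtain ⟨m, εc, hεc, hcore⟩ := hCORE n
  obtain ⟨CA, hCA, hA⟩ := hA3 n m
  obtain ⟨CD, εD, hCD, hεD, hdif⟩ := hDIF n (m + n + 1)
  obtain ⟨δ1, hδ1, hnorm1⟩ := hN1 n (m + n + 1) (εc / (CA * CD)) (by positivity)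
  obtain ⟨CG, εG, hCG, hεG, hgauge⟩ := hG n (m + n + 1)
  obtain ⟨CB, hCB, hB⟩ := hA3 n (m + n + 1)
  have hm1 : 0 < min δ1 εD := lt_min hδ1 hεD
  have hδ2 : 0 < min εG (min δ1 εD / CG) := lt_min hεG (by positivity)
  obtain ⟨δ2, hδ2e⟩ : ∃ δ2, δ2 = min εG (min δ1 εD / CG) := ⟨_, rfl⟩
  rw [← hδ2e] at hδ2
  have hδ2G : δ2 ≤ εG := hδ2e ▸ min_le_left _ _
  have hδ2' : CG * δ2 ≤ min δ1 εD := by
    have h1 : δ2 ≤ min δ1 εD / CG := hδ2e ▸ min_le_right _ _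
    rw [le_div_iff₀ hCG] at h1
    linarith
  obtain ⟨B, hBe⟩ : ∃ B, B = min (δ2 / CB) δ1 := ⟨_, rfl⟩
  have hB0 : 0 < B := hBe ▸ lt_min (by positivity) hδ1
  have hB1 : CB * B ≤ δ2 := by
    have h1 : B ≤ δ2 / CB := hBe ▸ min_le_left _ _
    rw [le_div_iff₀ hCB] at h1
    linarith
  have hB2 : B ≤ δ1 := hBe ▸ min_le_right _ _
  obtain ⟨δ0, hδ0, hnorm0⟩ := hN0 n (m + n + 1 + n + 1) B hB0
  refine ⟨m + n + 1 + n + 1, δ0, hδ0, fun Ω hΩ hreg hΩc g hg hpos hoff hcl hst hstp => ?_⟩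
  have hbd : Bornology.IsBounded Ω := H129.isCompact_core.isBounded.subset hΩc
  have hs : SmM (sg g) := smM_sg442 hg hpos
  have hsym : ∀ x, (sg g x).IsSymm := symm_sg442 hpos
  have hs1 : ∀ x ∉ Ω, sg g x = 1 := fun x hx => sg_one442 (hoff x hx)
  have hcls := hnorm0 g hg hcl
  have hnm : ∀ i j, nm (m + n + 1) (cf 0 (ent (sg g) i j)) ≤ δ2 := by
    intro i j
    have h1 := (hB (ent (sg g) i j) (H129.smooth_ent hs i j)
      ((H129.tsupport_ent hΩc hs1 i j).trans H129.core_subset_cube) 0 (by simp)).2.2 B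
      (cl_ent442 hs i j (hcls i j))
    exact h1.trans hB1
  obtain ⟨w, hw, hw0, hwcl, hwdv⟩ := hgauge Ω hΩ hreg hΩc (sg g) hs hsym hs1 hst δ2 hδ2.le hδ2G hnm
  have hwD : Cl (m + n + 1 + 1) εD w := cl_le442 hwcl le_rfl (hδ2'.trans (min_le_right _ _))
  have hw1 : Cl (m + n + 1 + 1) δ1 w := cl_le442 hwcl le_rfl (hδ2'.trans (min_le_left _ _))
  obtain ⟨K, hK, hcomp⟩ := hdif Ω w hw hw0 hwD
  obtain ⟨p1, p2, p3, p5⟩ := hP Ω hΩ hbd hreg (sg g) hs hsym hs1 w K hK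
  have hn1 := hnorm1 Ω (sg g) w K CD hs hK hcomp
    (fun i j => cl_le442 (hcls i j) (by omega) hB2) hw1
  have hnm2 : ∀ i j, nm m (cf 0 (ent (psh (sg g) w K) i j)) ≤ εc := by
    intro i j
    have h1 := (hA (ent (psh (sg g) w K) i j) (H129.smooth_ent p1 i j)
      ((H129.tsupport_ent hΩc p3 i j).trans H129.core_subset_cube) 0 (by simp)).2.2
      (CD * (εc / (CA * CD))) (cl_ent442 p1 i j (hn1 i j))
    refine h1.trans (le_of_eq ?_)
    field_simp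
  have hone := hcore Ω hΩ hΩc (psh (sg g) w K) p1 p2 p3 (p5 hwdv) (hstp w K hK) hnm2
  exact ⟨w, K, hK, hISO hn Ω g hg hpos w K hK hone⟩

/-- The scalar theorem from the rows: a metric near the flat one, equal to it off `Ω`, with the
same Dirichlet-to-Neumann form, is the pull-back of the flat one by a diffeomorphism which is the
identity off `Ω`. -/
theorem top442 (hA3 : RowA3) (hSTAR : RowSTAR) (hCORE : RowCORE) (hG : Gauge442) (hDIF : RowDIF)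
    (hPUSH : RowPUSH) (hN1 : RowNORM1) (hN0 : RowNORM0) (hISO : RowISO) :
    ∀ n : ℕ, 3 ≤ n → ∃ (k : ℕ) (ε : ℝ), 0 < ε ∧ ∀ (Ω : Set (V n)), IsOpen Ω →
      interior (closure Ω) = Ω → Ω ⊆ core n → ∀ g : MF n, SmM g → (∀ x, (g x).PosDef) →
      (∀ x ∉ Ω, g x = 1) →
      (∀ i j, Cl k ε (fun x => g x i j - (1 : Matrix (Fin n) (Fin n) ℝ) i j)) →
      SD Ω (fun _ => 1) (sg g) →
      ∃ w K, Dif Ω w K ∧ ∀ x, g x = (jm w x)ᵀ * jm w x := by
  intro n hn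
  obtain ⟨k, ε, hε, h⟩ := asm442 hA3 hCORE hG hDIF
    (fun Ω h1 h2 h3 s h4 h5 h6 w K h7 => by
      obtain ⟨q1, q2, q3, -, q5⟩ := hPUSH Ω h1 h2 h3 s h4 h5 h6 w K h7
      exact ⟨q1, q2, q3, q5⟩) hN1 hN0 hISO n hn
  refine ⟨k, ε, hε, fun Ω hΩ hreg hΩc g hg hpos hoff hcl hsd => ?_⟩
  have hbd : Bornology.IsBounded Ω := H129.isCompact_core.isBounded.subset hΩc
  have hs : SmM (sg g) := smM_sg442 hg hpos
  have hsym : ∀ x, (sg g x).IsSymm := symm_sg442 hpos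
  have hs1 : ∀ x ∉ Ω, sg g x = 1 := fun x hx => sg_one442 (hoff x hx)
  refine h Ω hΩ hreg hΩc g hg hpos hoff hcl (hSTAR Ω hΩ hbd (sg g) hs hsym hsd) ?_
  intro w K hK
  obtain ⟨q1, q2, q3, q4, -⟩ := hPUSH Ω hΩ hbd hreg (sg g) hs hsym hs1 w K hK
  exact hSTAR Ω hΩ hbd (psh (sg g) w K) q1 q2 (q4 hsd)

end Vale.Agent.P088.LR.H442
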