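import Vale.Agent.P088.H442.CFFin
import Vale.Agent.P088.H393.CFFin
import Vale.Agent.P088.H650.CFd
import Vale.Agent.P088.H952.CFRot

/-!
# P088, Theorem CF: unconditional
-/

open MeasureTheory Set
open scoped ContDiff Matrix

noncomputable section

namespace Vale.Agent.P088.LR.CF

/-- The solutions of complex frequency. -/
theorem cgf442 : RowCGF := H393.cgf H393.sym H501.rowA1 H501.rowA2 H776.rowA3
  (H884.a4 H501.rowA2 H776.rowA3) H102.neu

/-- The estimate. -/
theorem es442 : RowES2 :=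
  H952.rot (H327.int H776.rowA3) (H650.esf H501.rowA2 H776.rowA3 cgf442)

/-- Tensor form. -/
theorem rig442 : ∀ n : ℕ, ∃ (k : ℕ) (ε : ℝ), 0 < ε ∧ Rig2 n k ε := rig442_of_es2 es442

/-- **Theorem CF.** -/
theorem cf_final442 :
    ∀ n : ℕ, 3 ≤ n → ∃ k : ℕ, ∀ R : ℝ, 0 < R → ∃ ε > 0, LocB n SD k ε R := cf442_of_es2 es442

end Vale.Agent.P088.LR.CF
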