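import Vale.Agent.P088.H442.Top
import Vale.Agent.P088.H442.Defs3

/-!
# P088, Theorem CF: assembly from the rows
-/

open MeasureTheory Set
open scoped ContDiff Matrix

noncomputable section

namespace Vale.Agent.P088.LR.CF

variable {n : ℕ}

/-- `√(c^n) / c`. -/
def sgm442 (c : V n → ℝ) (x : V n) : ℝ := √((c x) ^ n) * (c x)⁻¹

theorem sgm_pos442 {c : V n → ℝ} (hc : ∀ x, 0 < c x) (x : V n) : 0 < sgm442 c x := by
  have := hc x
  unfold sgm442
  positivity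

theorem sgm_smooth442 {c : V n → ℝ} (h : ContDiff ℝ ∞ c) (hc : ∀ x, 0 < c x) :
    ContDiff ℝ ∞ (sgm442 c) := by
  have h1 : ContDiff ℝ ∞ (fun x => √((c x) ^ n)) :=
    (h.pow n).sqrt fun x => ne_of_gt (pow_pos (hc x) n)
  exact h1.mul (h.inv fun x => ne_of_gt (hc x))

theorem sg_sc442 {c : V n → ℝ} (hc : ∀ x, 0 < c x) : sg (sc c) = sc (sgm442 c) := by
  funext x
  have h0 : c x ≠ 0 := ne_of_gt (hc x)
  unfold sg sc sgm442
  rw [Matrix.det_smul, Matrix.det_one, mul_one, Fintype.card_fin]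
  have h1 : (c x • (1 : Matrix (Fin n) (Fin n) ℝ))⁻¹ = (c x)⁻¹ • (1 : Matrix (Fin n) (Fin n) ℝ) := by
    refine Matrix.inv_eq_right_inv ?_
    rw [Matrix.smul_mul, Matrix.mul_smul, Matrix.mul_one, smul_smul, mul_inv_cancel₀ h0, one_smul]
  rw [h1, smul_smul]

theorem cl_pdr442 {k : ℕ} {δ : ℝ} {f : V n → ℝ} (hf : ContDiff ℝ ∞ f) (h : Cl (k + 1) δ f)
    (j : Fin n) : Cl k δ (pd j f) := by
  intro l hl x
  let L : (V n →L[ℝ] ℝ) →L[ℝ] ℝ := ContinuousLinearMap.apply ℝ ℝ (Pi.single j (1 : ℝ))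
  have hL : ‖L‖ ≤ 1 := by
    refine ContinuousLinearMap.opNorm_le_bound _ zero_le_one fun T => ?_
    have h1 : L T = T (Pi.single j 1) := rfl
    rw [h1, one_mul]
    refine (T.le_opNorm _).trans ?_
    rw [Pi.norm_single, norm_one, mul_one]
  have h2 : pd j f = L ∘ fderiv ℝ f := rfl
  rw [h2]
  have hfd : ContDiff ℝ ∞ (fderiv ℝ f) := hf.fderiv_right (by simp)
  refine (ContinuousLinearMap.norm_iteratedFDeriv_comp_left L hfd.contDiffAt
    (by exact_mod_cast le_top)).trans ?_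
  rw [norm_iteratedFDeriv_fderiv]
  calc ‖L‖ * ‖iteratedFDeriv ℝ (l + 1) f x‖ ≤ 1 * ‖iteratedFDeriv ℝ (l + 1) f x‖ :=
        mul_le_mul_of_nonneg_right hL (norm_nonneg _)
    _ ≤ δ := by rw [one_mul]; exact h (l + 1) (by omega) x

theorem cl_ofReal442 {k : ℕ} {B : ℝ} {f : V n → ℝ} (hf : ContDiff ℝ ∞ f) (h : Cl k B f) :
    Cl k B (fun x => ((f x : ℝ) : ℂ)) := by
  intro l hl x
  have h1 : ContDiff ℝ l f := hf.of_le (by exact_mod_cast le_top)
  have h2 : (fun x => ((f x : ℝ) : ℂ)) = Complex.ofRealLI ∘ f := rfl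
  rw [h2, Complex.ofRealLI.norm_iteratedFDeriv_comp_left h1.contDiffAt le_rfl]
  exact h l hl x

/-- `∂ log σ` and `1 / σ - 1` are small if `σ - 1` is small. -/
theorem small_lg442 (n M : ℕ) {ε : ℝ} (hε : 0 < ε) : ∃ δ > 0, ∀ σ : V n → ℝ, ContDiff ℝ ∞ σ →
    (∀ x, 0 < σ x) → Cl (M + 1) δ (fun x => σ x - 1) →
    (∀ j, Cl M ε (lg σ j)) ∧ Cl M ε (fun x => (σ x)⁻¹ - 1) := by
  let t : Set (Unit → ℝ) := {p | 0 < p ()}
  have ht : IsOpen t := isOpen_lt continuous_const (continuous_apply ())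
  have hp0 : (fun _ => (1 : ℝ) : Unit → ℝ) ∈ t := by
    show (0 : ℝ) < 1
    exact one_pos
  have hap : ContDiffOn ℝ ∞ (fun p : Unit → ℝ => p ()) t := (contDiff_apply ℝ ℝ ()).contDiffOn
  have hSp : ∀ p ∈ t, p () ≠ 0 := fun p hp => ne_of_gt hp
  obtain ⟨δ1, hδ1, h1⟩ := H72.small_comp (n := n) t ht (fun _ => 1) hp0
    (fun p => Real.log (p ())) (hap.log hSp) (by simp) (M + 1) ε hε
  obtain ⟨δ2, hδ2, h2⟩ := H72.small_comp (n := n) t ht (fun _ => 1) hp0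
    (fun p => (p ())⁻¹ - 1) ((hap.inv hSp).sub contDiffOn_const) (by simp)
    (M + 1) ε hε
  refine ⟨min δ1 δ2, lt_min hδ1 hδ2, fun c hc hpos hcl => ⟨fun j => ?_, ?_⟩⟩
  · obtain ⟨-, h3⟩ := h1 (fun x _ => c x) (contDiff_pi.2 fun _ => hc)
      (fun _ => H72.cl_mono hcl (min_le_left _ _))
    have hsm : ContDiff ℝ ∞ (fun x => Real.log (c x)) := hc.log fun x => ne_of_gt (hpos x)
    have h4 : lg c j = fun x => ((pd j (fun x => Real.log (c x)) x : ℝ) : ℂ) := by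
      funext x
      unfold lg
      congr 1
      have h5 : DifferentiableAt ℝ c x := (hc.differentiable (by simp)) x
      have h6 : HasFDerivAt (fun x => Real.log (c x)) ((c x)⁻¹ • fderiv ℝ c x) x :=
        h5.hasFDerivAt.log (ne_of_gt (hpos x))
      unfold pd
      rw [h6.fderiv]
      rw [smul_apply, smul_eq_mul, div_eq_inv_mul]
    rw [h4]
    have h7 : ContDiff ℝ ∞ (pd j (fun x => Real.log (c x))) :=
      (hsm.fderiv_right (by simp)).clm_apply contDiff_const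
    exact cl_ofReal442 h7 (cl_pdr442 hsm h3 j)
  · obtain ⟨-, h3⟩ := h2 (fun x _ => c x) (contDiff_pi.2 fun _ => hc)
      (fun _ => H72.cl_mono hcl (min_le_right _ _))
    exact fun l hl x => h3 l (hl.trans (Nat.le_succ M)) x

/-- `√(c^n) / c - 1` is small if `c - 1` is small. -/
theorem small_sgm442 (n k : ℕ) {ε : ℝ} (hε : 0 < ε) : ∃ δ > 0, ∀ c : V n → ℝ, ContDiff ℝ ∞ c →
    Cl k δ (fun x => c x - 1) → Cl k ε (fun x => sgm442 c x - 1) := by
  let t : Set (Unit → ℝ) := {p | 0 < p ()}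
  have ht : IsOpen t := isOpen_lt continuous_const (continuous_apply ())
  have hp0 : (fun _ => (1 : ℝ) : Unit → ℝ) ∈ t := by
    show (0 : ℝ) < 1
    exact one_pos
  have hap : ContDiffOn ℝ ∞ (fun p : Unit → ℝ => p ()) t := (contDiff_apply ℝ ℝ ()).contDiffOn
  have hS : ContDiffOn ℝ ∞ (fun p : Unit → ℝ => √((p ()) ^ n) * (p ())⁻¹) t :=
    ((hap.pow n).sqrt fun p hp => ne_of_gt (pow_pos hp n)).mul
      (hap.inv fun p hp => ne_of_gt hp)
  obtain ⟨δ1, hδ1, h1⟩ := H72.small_comp (n := n) t ht (fun _ => 1) hp0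
    (fun p => √((p ()) ^ n) * (p ())⁻¹ - 1) (hS.sub contDiffOn_const) (by simp) k ε hε
  exact ⟨δ1, hδ1, fun c hc hcl =>
    (h1 (fun x _ => c x) (contDiff_pi.2 fun _ => hc) (fun _ => hcl)).2⟩

theorem cl_sc442 {k : ℕ} {B : ℝ} {c : V n → ℝ} (hB : 0 ≤ B) (h : Cl k B (fun x => c x - 1))
    (i j : Fin n) : Cl k B (fun x => sc c x i j - (1 : Matrix (Fin n) (Fin n) ℝ) i j) := by
  by_cases hij : i = j
  · subst hij
    have h1 : (fun x => sc c x i i - (1 : Matrix (Fin n) (Fin n) ℝ) i i) = fun x => c x - 1 := by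
      funext x; simp [sc]
    rw [h1]; exact h
  · have h1 : (fun x => sc c x i j - (1 : Matrix (Fin n) (Fin n) ℝ) i j) = fun _ => (0 : ℝ) := by
      funext x; simp [sc, Matrix.one_apply_ne hij]
    rw [h1]
    intro l _ x
    have h2 : iteratedFDeriv ℝ l (fun _ : V n => (0 : ℝ)) x = 0 := by
      have := iteratedFDeriv_fun_zero (𝕜 := ℝ) (E := V n) (F := ℝ) (n := l)
      exact congrFun this x
    rw [h2, norm_zero]; exact hB

theorem smM_sc442 {c : V n → ℝ} (h : ContDiff ℝ ∞ c) : SmM (sc c) := by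
  intro i j
  have h1 : (fun x => sc c x i j) = fun x => c x * (1 : Matrix (Fin n) (Fin n) ℝ) i j := by
    funext x; simp [sc]
  rw [h1]
  exact h.mul contDiff_const

theorem symm_sc442 (c : V n → ℝ) (x : V n) : (sc c x).IsSymm := by
  unfold sc
  rw [Matrix.IsSymm, Matrix.transpose_smul, Matrix.transpose_one]

theorem posDef_sc442 {c : V n → ℝ} (hc : ∀ x, 0 < c x) (x : V n) : (sc c x).PosDef :=
  Matrix.PosDef.one.smul (hc x)

theorem bal_subset_core442 : bal n ⊆ core n := by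
  intro x hx j
  have h1 : (x j - 1 / 2) ^ 2 ≤ ∑ j, (x j - 1 / 2) ^ 2 :=
    Finset.single_le_sum (f := fun j => (x j - 1 / 2) ^ 2) (fun _ _ => sq_nonneg _)
      (Finset.mem_univ j)
  have h2 : (x j - 1 / 2) ^ 2 ≤ 1 / 16 := h1.trans hx
  constructor
  · nlinarith
  · nlinarith

theorem df_smooth442 {s₁ s₂ : MF n} (h1 : SmM s₁) (h2 : SmM s₂) (i j : Fin n) :
    ContDiff ℝ ∞ (df s₁ s₂ i j) :=
  Complex.ofRealCLM.contDiff.comp ((h2 i j).sub (h1 i j))

theorem df_tsupport442 {Ω : Set (V n)} {s₁ s₂ : MF n} (hΩ : Ω ⊆ core n)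
    (h : ∀ x ∉ Ω, s₂ x = s₁ x) (i j : Fin n) : tsupport (df s₁ s₂ i j) ⊆ core n := by
  refine closure_minimal ?_ H129.isCompact_core.isClosed
  intro x hx
  by_contra hc
  exact hx (by simp [df, h x fun h' => hc (hΩ h')])

theorem cl_add442 {k : ℕ} {a b : ℝ} {f g : V n → ℝ} (hf : ContDiff ℝ ∞ f) (hg : ContDiff ℝ ∞ g)
    (h1 : Cl k a f) (h2 : Cl k b g) : Cl k (a + b) (fun x => f x - g x) := by
  intro l hl x
  have e : iteratedFDeriv ℝ l (fun x => f x - g x) x =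
      iteratedFDeriv ℝ l f x - iteratedFDeriv ℝ l g x :=
    iteratedFDeriv_sub_apply ((hf.of_le (by exact_mod_cast le_top)).contDiffAt)
      ((hg.of_le (by exact_mod_cast le_top)).contDiffAt)
  rw [e]
  exact (norm_sub_le _ _).trans (add_le_add (h1 l hl x) (h2 l hl x))

/-- Rigidity of the conformal tensors near `1` in the form with the orthogonality identity
(all `n`, any symmetric tensor `s`). -/
def Rig2 (n k : ℕ) (ε : ℝ) : Prop := ∀ (Ω : Set (V n)), IsOpen Ω →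
  interior (closure Ω) = Ω → Ω ⊆ bal n → ∀ (σ : V n → ℝ) (s : MF n), ContDiff ℝ ∞ σ →
  (∀ x, 0 < σ x) → (∀ x ∉ bal n, σ x = 1) → SmM s → (∀ x, (s x).IsSymm) →
  (∀ x ∉ Ω, s x = sc σ x) → Cl k ε (fun x => σ x - 1) →
  (∀ i j, Cl k ε (fun x => s x i j - (1 : Matrix (Fin n) (Fin n) ℝ) i j)) →
  St2 Ω (sc σ) s → ∃ w K, Dif Ω w K ∧ ∀ x, psh s w K x = sc σ x

/-- **Theorem CF for tensors, from the rows.** -/
theorem rig2_of_rows442 (hA3 : RowA3) (hN1 : RowNORM1) (hG2 : RowG2)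
    (hPHI : RowPHI) (hPU : RowPU2) (hABS : RowABS) :
    ∀ n : ℕ, ∃ (k : ℕ) (ε : ℝ), 0 < ε ∧ Rig2 n k ε := by
  intro n
  obtain ⟨m, M, εa, hεa, habs⟩ := hABS n
  obtain ⟨CA, hCA, hA⟩ := hA3 n m
  -- k1 = m + n + 1
  obtain ⟨CP, εP, hCP, hεP, hphi⟩ := hPHI n (m + n + 1)
  -- NORM1: size of the push-forward
  obtain ⟨δ1, hδ1, hnorm1⟩ := hN1 n (m + n + 1) (εa / (2 * CA * CP)) (by positivity)
  -- G2 with M := m + n + 2
  obtain ⟨CG, εG, hCG, hεG, hg2⟩ := hG2 n (m + n + 2)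
  obtain ⟨CB, hCB, hB⟩ := hA3 n (m + n + 2)
  -- δ for the coefficients
  obtain ⟨δ2, hδ2, hδ2G, hδ2a, hδ2b, hδ2c⟩ : ∃ δ2 : ℝ, 0 < δ2 ∧ δ2 ≤ εG ∧ CG * δ2 ≤ εP ∧
      CP * (CG * δ2) ≤ δ1 ∧ CG * δ2 ≤ εa := by
    refine ⟨min εG (min (εP / CG) (min (δ1 / (CP * CG)) (εa / CG))), ?_, min_le_left _ _, ?_, ?_, ?_⟩
    · refine lt_min hεG (lt_min (by positivity) (lt_min (by positivity) (by positivity)))
    · have h1 : min εG (min (εP / CG) (min (δ1 / (CP * CG)) (εa / CG))) ≤ εP / CG :=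
        (min_le_right _ _).trans (min_le_left _ _)
      calc CG * min εG (min (εP / CG) (min (δ1 / (CP * CG)) (εa / CG))) ≤ CG * (εP / CG) :=
            mul_le_mul_of_nonneg_left h1 hCG.le
        _ = εP := by field_simp
    · have h1 : min εG (min (εP / CG) (min (δ1 / (CP * CG)) (εa / CG))) ≤ δ1 / (CP * CG) :=
        (min_le_right _ _).trans ((min_le_right _ _).trans (min_le_left _ _))
      calc CP * (CG * min εG (min (εP / CG) (min (δ1 / (CP * CG)) (εa / CG))))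
          ≤ CP * (CG * (δ1 / (CP * CG))) := by gcongr
        _ = δ1 := by field_simp
    · have h1 : min εG (min (εP / CG) (min (δ1 / (CP * CG)) (εa / CG))) ≤ εa / CG :=
        (min_le_right _ _).trans ((min_le_right _ _).trans (min_le_right _ _))
      calc CG * min εG (min (εP / CG) (min (δ1 / (CP * CG)) (εa / CG))) ≤ CG * (εa / CG) :=
            mul_le_mul_of_nonneg_left h1 hCG.le
        _ = εa := by field_simp
  -- B: the size of s - 1
  obtain ⟨B, hB0, hB1, hB2, hB3⟩ : ∃ B : ℝ, 0 < B ∧ CB * B ≤ δ2 ∧ B ≤ δ1 ∧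
      B ≤ εa / (2 * CA) := by
    refine ⟨min (δ2 / CB) (min δ1 (εa / (2 * CA))), lt_min (by positivity)
      (lt_min hδ1 (by positivity)), ?_, (min_le_right _ _).trans (min_le_left _ _),
      (min_le_right _ _).trans (min_le_right _ _)⟩
    calc CB * min (δ2 / CB) (min δ1 (εa / (2 * CA))) ≤ CB * (δ2 / CB) :=
          mul_le_mul_of_nonneg_left (min_le_left _ _) hCB.le
      _ = δ2 := by field_simp
  obtain ⟨δs, hδs, hsml⟩ := small_lg442 n M hεa
  refine ⟨max (m + n + 2 + n + 1) (M + 1), min B δs, lt_min hB0 hδs, ?_⟩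
  intro Ω hΩ hreg hΩb σ s hσs hσpos hσ1 hs2 hy2 hoff2 hσcl hscl hst
  have hΩc : Ω ⊆ core n := hΩb.trans bal_subset_core442
  have hs1 : SmM (sc σ) := smM_sc442 hσs
  have hy1 : ∀ x, (sc σ x).IsSymm := symm_sc442 σ
  have hone1 : ∀ x ∉ core n, sc σ x = 1 := by
    intro x hx
    have h1 : σ x = 1 := hσ1 x fun h => hx (bal_subset_core442 h)
    unfold sc
    rw [h1, one_smul]
  have hone2 : ∀ x ∉ core n, s x = 1 := fun x hx => by
    rw [hoff2 x fun h => hx (hΩc h)]; exact hone1 x hx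
  -- smallness of the two tensors
  have hcl1 : ∀ i j, Cl (m + n + 2 + n + 1) B
      (fun x => sc σ x i j - (1 : Matrix (Fin n) (Fin n) ℝ) i j) :=
    cl_sc442 hB0.le (H442.cl_le442 hσcl (le_max_left _ _) (min_le_left _ _))
  have hcl2 : ∀ i j, Cl (m + n + 2 + n + 1) B
      (fun x => s x i j - (1 : Matrix (Fin n) (Fin n) ℝ) i j) :=
    fun i j => H442.cl_le442 (hscl i j) (le_max_left _ _) (min_le_left _ _)
  have hentc : ∀ (s : MF n), SmM s → (∀ x ∉ core n, s x = 1) →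
      (∀ i j, Cl (m + n + 2 + n + 1) B
        (fun x => s x i j - (1 : Matrix (Fin n) (Fin n) ℝ) i j)) →
      ∀ i j, nm (m + n + 2) (cf 0 (ent s i j)) ≤ δ2 := by
    intro s hs hs1 hcl i j
    have h1 := (hB (ent s i j) (H129.smooth_ent hs i j)
      ((H129.tsupport_ent subset_rfl hs1 i j).trans H129.core_subset_cube) 0 (by simp)).2.2 B
      (H442.cl_ent442 hs i j (hcl i j))
    exact h1.trans hB1
  obtain ⟨w₁, w₂, gc, hw1, hw2, hwc1, hwc2, hww, hd1, hd2, hgc, hgpd⟩ :=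
    hg2 Ω hΩ hreg hΩc (sc σ) s hs1 hs2 hy1 hy2 hone1 hoff2 hst δ2 hδ2.le hδ2G
      (hentc _ hs1 hone1 hcl1) (hentc _ hs2 hone2 hcl2)
  obtain ⟨w, K, hD, hwcl, hwe, hcomp⟩ := hphi Ω w₁ w₂ hw1 hw2 hww (CG * δ2) (by positivity)
    hδ2a hwc1 hwc2
  obtain ⟨p1, p2, p3, p4, p5⟩ := hPU Ω hΩ hΩc hreg (sc σ) s hs1 hs2 hy1 hy2 hoff2 w K hD
  have hΩcube : Ω ⊆ cube n := hΩc.trans H129.core_subset_cube
  have hgauge := p5 w₁ w₂ hw1 hw2 hwe (fun a x hx => hd1 a x (hΩcube hx))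
    (fun a x hx => hd2 a x (hΩcube hx))
  -- size of the push-forward
  have hn1 := hnorm1 Ω s w K CP hs2 hD hcomp
    (fun i j => H442.cl_le442 (hcl2 i j) (by omega) hB2)
    (H442.cl_le442 hwcl le_rfl hδ2b)
  have hdfcl : ∀ i j, Cl (m + n + 1) (εa / CA) (df (sc σ) (psh s w K) i j) := by
    intro i j
    have h1 : Cl (m + n + 1) (CP * (εa / (2 * CA * CP)) + B)
        (fun x => (psh s w K x i j - (1 : Matrix (Fin n) (Fin n) ℝ) i j)
          - (sc σ x i j - (1 : Matrix (Fin n) (Fin n) ℝ) i j)) :=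
      cl_add442 ((p1 i j).sub contDiff_const) ((hs1 i j).sub contDiff_const) (hn1 i j)
        (H442.cl_le442 (hcl1 i j) (by omega) le_rfl)
    have h2 : (fun x => (psh s w K x i j - (1 : Matrix (Fin n) (Fin n) ℝ) i j)
          - (sc σ x i j - (1 : Matrix (Fin n) (Fin n) ℝ) i j))
        = fun x => psh s w K x i j - sc σ x i j := by
      funext x; ring
    rw [h2] at h1
    have h3 : CP * (εa / (2 * CA * CP)) + B ≤ εa / CA := by
      have h4 : CP * (εa / (2 * CA * CP)) = εa / (2 * CA) := by field_simp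
      rw [h4]
      have h5 : εa / (2 * CA) + εa / (2 * CA) = εa / CA := by field_simp; ring
      linarith
    exact cl_ofReal442 ((p1 i j).sub (hs1 i j)) (H442.cl_le442 h1 le_rfl h3)
  have hnm : ∀ i j, nm m (cf 0 (df (sc σ) (psh s w K) i j)) ≤ εa := by
    intro i j
    have h1 := (hA (df (sc σ) (psh s w K) i j) (df_smooth442 hs1 p1 i j)
      ((df_tsupport442 hΩc p3 i j).trans H129.core_subset_cube) 0 (by simp)).2.2
      (εa / CA) (hdfcl i j)
    refine h1.trans (le_of_eq ?_)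
    field_simp
  have hbk : Bk Ω σ (psh s w K) := ⟨hΩ, hΩb, hσs, hσpos, hσ1, p1, p2, p3, p4 hst⟩
  obtain ⟨hl1, hl2⟩ := hsml σ hσs hσpos
    (H442.cl_le442 hσcl (le_max_right _ _) (min_le_right _ _))
  have hgn : ∀ i j, nm (n + 1) (gc i j) ≤ εa := by
    intro i j
    have h1 : nm (n + 1) (gc i j) ≤ nm (m + n + 2) (gc i j) := by
      refine Summable.tsum_le_tsum (fun k => ?_) ((hgc i j).1 _) ((hgc i j).1 _)
      exact mul_le_mul_of_nonneg_right (pow_le_pow_right₀ (H129.one_le_wt k) (by omega))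
        (norm_nonneg _)
    exact h1.trans ((hgc i j).2.trans hδ2c)
  have hone := habs Ω σ (psh s w K) hbk hl1 hl2 gc (fun i j => (hgc i j).1) hgn
    (fun ξ a => by
      have h1 := hgauge ξ a
      refine Eq.trans (Finset.sum_congr rfl fun i _ => ?_) h1
      congr 2
      funext x
      congr 1
      exact Finset.sum_congr rfl fun j _ => by rw [hgpd j a x]) hnm
  exact ⟨w, K, hD, hone⟩

/-- The statement for metrics, orthogonality form. -/
def LocS2 (n k : ℕ) (ε : ℝ) : Prop := ∀ (Ω : Set (V n)), IsOpen Ω →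
  interior (closure Ω) = Ω → Ω ⊆ bal n → ∀ (c : V n → ℝ) (g : MF n), ContDiff ℝ ∞ c →
  (∀ x, 0 < c x) → (∀ x ∉ bal n, c x = 1) → SmM g → (∀ x, (g x).PosDef) →
  (∀ x ∉ Ω, g x = sc c x) → Cl k ε (fun x => c x - 1) →
  (∀ i j, Cl k ε (fun x => g x i j - (1 : Matrix (Fin n) (Fin n) ℝ) i j)) →
  St2 Ω (sg (sc c)) (sg g) → ∃ w K, Dif Ω w K ∧ ∀ x, g x = c (x + w x) • ((jm w x)ᵀ * jm w x)

/-- From tensors to metrics. -/
theorem locS2_of_rig442 (hN0 : RowNORM0) (hIS : RowIS2)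
    (hR : ∀ n : ℕ, ∃ (k : ℕ) (ε : ℝ), 0 < ε ∧ Rig2 n k ε) :
    ∀ n : ℕ, 3 ≤ n → ∃ (k : ℕ) (ε : ℝ), 0 < ε ∧ LocS2 n k ε := by
  intro n hn
  obtain ⟨k, ε, hε, hrig⟩ := hR n
  obtain ⟨δ0, hδ0, hnorm0⟩ := hN0 n k ε hε
  obtain ⟨δs, hδs, hsml⟩ := small_sgm442 n k hε
  refine ⟨k, min δ0 δs, lt_min hδ0 hδs, ?_⟩
  intro Ω hΩ hreg hΩb c g hc hcpos hc1 hg hpos hoff hccl hgcl hst
  have hs1e : sg (sc c) = sc (sgm442 c) := sg_sc442 hcpos
  have hoff2 : ∀ x ∉ Ω, sg g x = sc (sgm442 c) x := by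
    intro x hx
    rw [← hs1e]
    unfold sg
    rw [hoff x hx]
  have hσ1 : ∀ x ∉ bal n, sgm442 c x = 1 := by
    intro x hx
    rw [sgm442, hc1 x hx, one_pow, Real.sqrt_one, inv_one, one_mul]
  rw [hs1e] at hst
  obtain ⟨w, K, hD, hone⟩ := hrig Ω hΩ hreg hΩb (sgm442 c) (sg g) (sgm_smooth442 hc hcpos)
    (sgm_pos442 hcpos) hσ1 (H442.smM_sg442 hg hpos) (H442.symm_sg442 hpos) hoff2
    (hsml c hc (H72.cl_mono hccl (min_le_right _ _)))
    (hnorm0 g hg fun i j => H72.cl_mono (hgcl i j) (min_le_left _ _)) hst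
  refine ⟨w, K, hD, hIS hn Ω c g hcpos hpos w K hD fun x => ?_⟩
  rw [hone x, hs1e]

/-- **Theorem CF** with the Dirichlet-to-Neumann data. -/
theorem loc2_of_locS442 (hST : RowST2) {n k : ℕ} {ε : ℝ} (h : LocS2 n k ε) : Loc2 n k ε := by
  intro Ω hΩ hreg hΩb c g hc hcpos hc1 hg hpos hoff hccl hgcl hsd
  have hbd : Bornology.IsBounded Ω :=
    H129.isCompact_core.isBounded.subset (hΩb.trans bal_subset_core442)
  have hs1 : SmM (sg (sc c)) := H442.smM_sg442 (smM_sc442 hc) (posDef_sc442 hcpos)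
  exact h Ω hΩ hreg hΩb c g hc hcpos hc1 hg hpos hoff hccl hgcl
    (hST Ω hΩ hbd _ _ hs1 (H442.smM_sg442 hg hpos) (H442.symm_sg442 (posDef_sc442 hcpos))
      (H442.symm_sg442 hpos) hsd)

end Vale.Agent.P088.LR.CF
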