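import Vale.Agent.P088.H442.CFMet
import Vale.Agent.P088.H198.Defs4

/-!
# P088, Theorem CF in the tensor form `LocS` of `H198/Defs4`
-/

open MeasureTheory Set
open scoped ContDiff Matrix

noncomputable section

namespace Vale.Agent.P088.LR.CF

variable {n : ℕ}

theorem locS442 {n k : ℕ} {ε : ℝ} (h : Rig2 n k ε) : LocS n k ε :=
  fun Ω h1 h2 h3 σ s h4 h5 h6 h7 h8 h9 h10 h11 =>
    h Ω h1 h2 h3 σ s h4.1 h4.2 h5 h6 h7 h8 h9 h10 h11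

/-- `LocS` from the rows. -/
theorem locS_of_rows442 (hA3 : RowA3) (hN1 : RowNORM1) (hG2 : RowG2)
    (hPHI : RowPHI) (hPU : RowPU2) (hABS : RowABS) :
    ∀ n : ℕ, ∃ (k : ℕ) (ε : ℝ), 0 < ε ∧ LocS n k ε := by
  intro n
  obtain ⟨k, ε, hε, h⟩ := rig2_of_rows442 hA3 hN1 hG2 hPHI hPU hABS n
  exact ⟨k, ε, hε, locS442 h⟩

end Vale.Agent.P088.LR.CF
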