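import Vale.Agent.P088.H442.CFMet
import Vale.Agent.P088.H442.CFLocS
import Vale.Agent.P088.H393.CFSym
import Vale.Agent.P088.H833.Phi
import Vale.Agent.P088.H27.CFTor
import Vale.Agent.P088.H292.CFPush
import Vale.Agent.P088.H695.CFStar
import Vale.Agent.P088.H695.CFIso
import Vale.Agent.P088.H327.CFInt
import Vale.Agent.P088.H599.CFAbs
import Vale.Agent.P088.H501.A12
import Vale.Agent.P088.H776.A3
import Vale.Agent.P088.H884.A4
import Vale.Agent.P088.H102.Neu
import Vale.Agent.P088.H72.Norm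

/-!
# P088, Theorem CF: all rows but the estimate plugged in
-/

open MeasureTheory Set
open scoped ContDiff Matrix

noncomputable section

namespace Vale.Agent.P088.LR.CF

/-- The tensor form, from the estimate `RowES2`. -/
theorem rig442_of_es2 (hES : RowES2) : ∀ n : ℕ, ∃ (k : ℕ) (ε : ℝ), 0 < ε ∧ Rig2 n k ε :=
  rig2_of_rows442 H776.rowA3 H72.norm1
    (H27.rowG2 H501.rowA1 H501.rowA2 H776.rowA3 H102.neu) H833.phi H292.pu2
    (abs hES H501.rowA2 H776.rowA3)

/-- Theorem CF, from the estimate `RowES2`. -/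
theorem cf442_of_es2 (hES : RowES2) :
    ∀ n : ℕ, 3 ≤ n → ∃ k : ℕ, ∀ R : ℝ, 0 < R → ∃ ε > 0, LocB n SD k ε R :=
  cf442 H776.rowA3 H72.norm0 H72.norm1
    (H27.rowG2 H501.rowA1 H501.rowA2 H776.rowA3 H102.neu) H833.phi H292.pu2
    (abs hES H501.rowA2 H776.rowA3) H695.st2 H695.is2

end Vale.Agent.P088.LR.CF
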